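import Mathlib

namespace Vale.Agent.Results.P176.A_SelfInjective

universe u

/-- `HasFGResolution A n N`: the module `N` has a projective resolution
`0 → P_n → ⋯ → P_0 → N → 0` of length at most `n` by finitely generated projective
`A`-modules. For `n = 0` this says that `N` itself is finitely generated projective; for
`n + 1` it says that some finitely generated projective module maps onto `N` with a kernel
that has such a resolution of length at most `n`. -/
def HasFGResolution (A : Type u) [Ring A] : ℕ → ModuleCat.{u} A → Prop
  | 0, N => Module.Projective A N ∧ Module.Finite A N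
  | n + 1, N => ∃ (P : ModuleCat.{u} A) (f : P →ₗ[A] N),
      Module.Projective A P ∧ Module.Finite A P ∧ Function.Surjective f ∧
        HasFGResolution A n (ModuleCat.of A (LinearMap.ker f))

section aux

variable {A : Type u} [Ring A]

/-- a retract of an injective module is injective -/
lemma injective_of_retract {P Q : Type u} [AddCommGroup P] [Module A P] [AddCommGroup Q]
    [Module A Q] [Module.Injective A Q] (i : P →ₗ[A] Q) (r : Q →ₗ[A] P)
    (h : r.comp i = LinearMap.id) : Module.Injective A P := by
  constructor
  intro X Y _ _ _ _ f hf g
  obtain ⟨e, he⟩ := Module.Injective.extension_property A Q X Y f hf (i.comp g)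
  refine ⟨r.comp e, fun x => ?_⟩
  have h1 : e (f x) = i (g x) := by
    have := DFunLike.congr_fun he x
    simpa using this
  have h2 : r (i (g x)) = g x := by
    have := DFunLike.congr_fun h (g x)
    simpa using this
  rw [LinearMap.comp_apply, h1, h2]

/-- over a ring that is injective as a module over itself, finitely generated projective
modules are injective -/
lemma injective_of_fg_projective [Module.Injective A A] (P : Type u) [AddCommGroup P]
    [Module A P] [Module.Projective A P] [Module.Finite A P] : Module.Injective A P := by
  obtain ⟨m, π, hπ⟩ := Module.Finite.exists_fin' A P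
  obtain ⟨s, hs⟩ := Module.projective_lifting_property π (LinearMap.id : P →ₗ[A] P) hπ
  exact injective_of_retract s π hs

/-- the quotient of a module by a submodule that is an injective module is a retract -/
lemma exists_section {P N : Type u} [AddCommGroup P] [Module A P] [AddCommGroup N] [Module A N]
    (f : P →ₗ[A] N) (hf : Function.Surjective f) [Module.Injective A (LinearMap.ker f)] :
    ∃ s : N →ₗ[A] P, f.comp s = LinearMap.id := by
  obtain ⟨r, hr⟩ := Module.Injective.extension_property A (LinearMap.ker f) (LinearMap.ker f) P
    (LinearMap.ker f).subtype (Submodule.injective_subtype _) LinearMap.id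
  have hr' : ∀ x : LinearMap.ker f, r (x : P) = x := by
    intro x
    have := DFunLike.congr_fun hr x
    simpa using this
  -- the endomorphism killing the kernel
  set e : P →ₗ[A] P := LinearMap.id - (LinearMap.ker f).subtype.comp r with he
  have hker : LinearMap.ker f ≤ LinearMap.ker e := by
    intro x hx
    rw [LinearMap.mem_ker, he]
    have h1 := hr' ⟨x, hx⟩
    simp only [LinearMap.sub_apply, LinearMap.id_apply, LinearMap.comp_apply,
      Submodule.subtype_apply]
    have h2 : ((r x : LinearMap.ker f) : P) = x := by
      have := congrArg (fun y : LinearMap.ker f => (y : P)) h1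
      simpa using this
    rw [h2, sub_self]
  have hfe : ∀ p, f (e p) = f p := by
    intro p
    rw [he]
    simp only [LinearMap.sub_apply, LinearMap.id_apply, LinearMap.comp_apply,
      Submodule.subtype_apply, map_sub]
    have : f ((r p : LinearMap.ker f) : P) = 0 := (r p).2
    rw [this, sub_zero]
  set s : N →ₗ[A] P :=
    ((LinearMap.ker f).liftQ e hker).comp (f.quotKerEquivOfSurjective hf).symm.toLinearMap
    with hs
  have hsf : ∀ p, s (f p) = e p := by
    intro p
    have h1 : (f.quotKerEquivOfSurjective hf).symm (f p) = Submodule.Quotient.mk p := by
      rw [LinearEquiv.symm_apply_eq]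
      rfl
    rw [hs, LinearMap.comp_apply]
    change ((LinearMap.ker f).liftQ e hker) ((f.quotKerEquivOfSurjective hf).symm (f p)) = e p
    rw [h1]
    rfl
  refine ⟨s, ?_⟩
  ext y
  obtain ⟨p, rfl⟩ := hf y
  rw [LinearMap.comp_apply, hsf, hfe, LinearMap.id_apply]

lemma main [Module.Injective A A] (n : ℕ) :
    ∀ N : ModuleCat.{u} A, HasFGResolution A n N → Module.Projective A N ∧ Module.Finite A N := by
  induction n with
  | zero =>
    intro N h
    exact h
  | succ n ih =>
    intro N h
    obtain ⟨P, f, hP, hPfin, hf, hK⟩ := h
    obtain ⟨hKproj, hKfin⟩ := ih _ hK
    have hKproj' : Module.Projective A (LinearMap.ker f) := hKproj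
    have hKfin' : Module.Finite A (LinearMap.ker f) := hKfin
    have hKinj : Module.Injective A (LinearMap.ker f) := injective_of_fg_projective _
    obtain ⟨s, hs⟩ := exists_section f hf
    exact ⟨Module.Projective.of_split s f hs, Module.Finite.of_surjective f hf⟩

end aux

/-- Over a ring `A` that is injective as a left module over itself (a left self-injective
ring, for instance a self-injective finite-dimensional algebra), every module that has a finite
projective resolution by finitely generated projective modules is projective. -/
theorem result (A : Type u) [Ring A] (hA : Module.Injective A A) (n : ℕ)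
    (N : ModuleCat.{u} A) (h : HasFGResolution A n N) : Module.Projective A N :=
  (main n N h).1

end Vale.Agent.Results.P176.A_SelfInjective
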